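import Mathlib

/-!
One-variable calculus lemmas used for P252.
-/

namespace Vale.Agent.Lib.P252

open scoped ContDiff

/-- derivative along a line -/
theorem fderiv_eq_deriv_line {E : Type*} [NormedAddCommGroup E] [NormedSpace ℝ E]
    (F : E → ℝ) (y v : E) (hF : DifferentiableAt ℝ F y) :
    fderiv ℝ F y v = deriv (fun t : ℝ => F (y + t • v)) 0 := by
  have hl : HasDerivAt (fun t : ℝ => y + t • v) v 0 := by
    have h1 : HasDerivAt (fun t : ℝ => t • v) ((1 : ℝ) • v) 0 := (hasDerivAt_id (0 : ℝ)).smul_const v
    simpa using h1.const_add y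
  have hF' : HasFDerivAt F (fderiv ℝ F y) ((fun t : ℝ => y + t • v) 0) := by
    simpa using hF.hasFDerivAt
  have := hF'.comp_hasDerivAt (0 : ℝ) hl
  exact this.deriv.symm

/-- a positive function on the line with nonpositive second derivative has zero derivative -/
theorem deriv_eq_zero_of_pos_of_deriv2_nonpos (φ : ℝ → ℝ) (h1 : Differentiable ℝ φ)
    (h2 : Differentiable ℝ (deriv φ)) (hpos : ∀ t, 0 < φ t)
    (hneg : ∀ t, deriv (deriv φ) t ≤ 0) : ∀ t, deriv φ t = 0 := by
  have hanti : Antitone (deriv φ) := antitone_of_deriv_nonpos h2 hneg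
  intro t0
  by_contra hm
  set m := deriv φ t0 with hmdef
  -- tangent line bound
  have htan : ∀ t, φ t ≤ φ t0 + m * (t - t0) := by
    intro t
    rcases lt_trichotomy t t0 with hlt | heq | hgt
    · obtain ⟨c, hc, hc'⟩ := exists_deriv_eq_slope φ hlt h1.continuous.continuousOn
        (h1.differentiableOn)
      have hcm : m ≤ deriv φ c := hanti hc.2.le
      have h3 : φ t0 - φ t = deriv φ c * (t0 - t) := by
        rw [hc']; field_simp [sub_ne_zero.mpr hlt.ne']
      nlinarith [sub_pos.mpr hlt]
    · subst heq; simp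
    · obtain ⟨c, hc, hc'⟩ := exists_deriv_eq_slope φ hgt h1.continuous.continuousOn
        (h1.differentiableOn)
      have hcm : deriv φ c ≤ m := hanti hc.1.le
      have h3 : φ t - φ t0 = deriv φ c * (t - t0) := by
        rw [hc']; field_simp [sub_ne_zero.mpr hgt.ne']
      nlinarith [sub_pos.mpr hgt]
  have := htan (t0 - φ t0 / m)
  have h4 : m * (t0 - φ t0 / m - t0) = - φ t0 := by field_simp; ring
  rw [h4] at this
  have := hpos (t0 - φ t0 / m)
  linarith

/-- a function with constant second derivative is a quadratic polynomial -/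
theorem eq_quadratic_of_deriv2_const (f : ℝ → ℝ) (h1 : Differentiable ℝ f)
    (h2 : Differentiable ℝ (deriv f)) (a : ℝ) (ha : ∀ t, deriv (deriv f) t = a) :
    ∀ t, f t = a / 2 * t ^ 2 + deriv f 0 * t + f 0 := by
  have hd1 : ∀ t, deriv f t = a * t + deriv f 0 := by
    have hconst : ∀ x y : ℝ, (fun t => deriv f t - a * t) x = (fun t => deriv f t - a * t) y := by
      apply is_const_of_deriv_eq_zero
      · exact h2.sub ((differentiable_const a).mul differentiable_id)
      · intro x
        have : HasDerivAt (fun t => deriv f t - a * t) (deriv (deriv f) x - a * 1) x :=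
          (h2 x).hasDerivAt.sub ((hasDerivAt_id x).const_mul a)
        rw [this.deriv, ha x]; ring
    intro t
    have := hconst t 0
    simp only [mul_zero, sub_zero] at this
    linarith
  have hconst2 : ∀ x y : ℝ, (fun t => f t - (a / 2 * t ^ 2 + deriv f 0 * t)) x
      = (fun t => f t - (a / 2 * t ^ 2 + deriv f 0 * t)) y := by
    apply is_const_of_deriv_eq_zero
    · apply h1.sub
      fun_prop
    · intro x
      have h3 : HasDerivAt (fun t : ℝ => a / 2 * t ^ 2 + deriv f 0 * t)
          (a / 2 * (2 * x) + deriv f 0 * 1) x := by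
        have e1 : HasDerivAt (fun t : ℝ => t ^ 2) (2 * x) x := by
          simpa using hasDerivAt_pow 2 x
        exact (e1.const_mul (a / 2)).add ((hasDerivAt_id x).const_mul (deriv f 0))
      have : HasDerivAt (fun t => f t - (a / 2 * t ^ 2 + deriv f 0 * t))
          (deriv f x - (a / 2 * (2 * x) + deriv f 0 * 1)) x :=
        (h1 x).hasDerivAt.sub h3
      rw [this.deriv, hd1 x]; ring
  intro t
  have := hconst2 t 0
  simp only [ne_eq, OfNat.ofNat_ne_zero, not_false_eq_true, zero_pow, mul_zero, add_zero,
    sub_zero] at this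
  linarith


end Vale.Agent.Lib.P252
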