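import Mathlib

/-!
Definitions for P252 (the affine Bernstein problem), for functions on all of `ℝ^n`
(modelled as `Fin n → ℝ`).
-/

namespace Vale.Agent.Lib.P252

/-- The Hessian matrix of `u : ℝ^n → ℝ` at `x`: its `(i, j)` entry is the iterated partial
derivative `∂_i ∂_j u (x)` (derivative in direction `e_i` of the derivative in direction `e_j`). -/
noncomputable def hessian {n : ℕ} (u : (Fin n → ℝ) → ℝ) (x : Fin n → ℝ) :
    Matrix (Fin n) (Fin n) ℝ :=
  Matrix.of fun i j => fderiv ℝ (fun y => fderiv ℝ u y (Pi.single j 1)) x (Pi.single i 1)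

/-- `u` solves the affine maximal equation on all of `ℝ^n`:
`∑_{i,j} U^{ij} ∂_{ij} w = 0` at every point, where `U = det(D²u) (D²u)⁻¹` and
`w = (det D²u)^(-(n+1)/(n+2))`. -/
def IsAffineMaximal {n : ℕ} (u : (Fin n → ℝ) → ℝ) : Prop :=
  ∀ x : Fin n → ℝ, ∑ i, ∑ j,
    ((hessian u x).det • (hessian u x)⁻¹) i j *
      hessian (fun y => (hessian u y).det ^ (-((n : ℝ) + 1) / ((n : ℝ) + 2))) x i j = 0

end Vale.Agent.Lib.P252
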