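import Mathlib
import Vale.Agent.Lib.P252.Defs
import Vale.Agent.Lib.P252.Calc

/-!
P252: entire separable solutions `u(x) = ∑ f_i(x_i)` of the affine maximal equation are
quadratic polynomials.
-/

namespace Vale.Agent.Lib.P252

open scoped ContDiff

section sep

variable {n : ℕ} (u : (Fin n → ℝ) → ℝ) (f : Fin n → ℝ → ℝ)

theorem sep_line (hsep : ∀ x, u x = ∑ i, f i (x i)) (y : Fin n → ℝ) (j : Fin n) (t : ℝ) :
    u (y + t • Pi.single j 1) = f j (y j + t) + ∑ k ∈ Finset.univ.erase j, f k (y k) := by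
  rw [hsep, ← Finset.add_sum_erase _ _ (Finset.mem_univ j)]
  congr 1
  · simp
  · apply Finset.sum_congr rfl
    intro k hk
    have : k ≠ j := Finset.ne_of_mem_erase hk
    simp [Pi.single_apply, this]

theorem sep_smooth (hu : ContDiff ℝ ∞ u) (hsep : ∀ x, u x = ∑ i, f i (x i)) (k : Fin n) :
    ContDiff ℝ ∞ (f k) := by
  have h1 : f k = fun t => u ((0 : Fin n → ℝ) + t • Pi.single k 1)
      - ∑ j ∈ Finset.univ.erase k, f j ((0 : Fin n → ℝ) j) := by
    funext t
    rw [sep_line u f hsep]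
    simp
  rw [h1]
  apply ContDiff.sub _ contDiff_const
  apply hu.comp
  fun_prop

/-- first partial derivatives of a separable function -/
theorem sep_fderiv (hu : ContDiff ℝ ∞ u) (hsep : ∀ x, u x = ∑ i, f i (x i)) (y : Fin n → ℝ)
    (j : Fin n) : fderiv ℝ u y (Pi.single j 1) = deriv (f j) (y j) := by
  have hdiff : DifferentiableAt ℝ u y := (hu.differentiable (by simp)).differentiableAt
  rw [fderiv_eq_deriv_line u y _ hdiff]
  have h1 : (fun t : ℝ => u (y + t • Pi.single j 1))
      = fun t => f j (y j + t) + ∑ k ∈ Finset.univ.erase j, f k (y k) := by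
    funext t; exact sep_line u f hsep y j t
  rw [h1]
  have hfj : Differentiable ℝ (f j) := (sep_smooth u f hu hsep j).differentiable (by simp)
  have h2 : HasDerivAt (fun t : ℝ => f j (y j + t)) (deriv (f j) (y j)) 0 := by
    have h3 : HasDerivAt (f j) (deriv (f j) (y j)) (y j + 0) := by
      simpa using (hfj (y j)).hasDerivAt
    simpa using h3.comp_const_add (y j) 0
  exact (h2.add_const _).deriv

/-- the Hessian of a separable function is diagonal -/
theorem sep_hessian (hu : ContDiff ℝ ∞ u) (hsep : ∀ x, u x = ∑ i, f i (x i)) (x : Fin n → ℝ) :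
    hessian u x = Matrix.diagonal (fun k => deriv (deriv (f k)) (x k)) := by
  ext i j
  have hfj : ContDiff ℝ ∞ (f j) := sep_smooth u f hu hsep j
  have hdfj : Differentiable ℝ (deriv (f j)) := by
    have : ContDiff ℝ ∞ (deriv (f j)) := hfj.deriv'
    exact this.differentiable (by simp)
  have h1 : (fun y => fderiv ℝ u y (Pi.single j 1)) = fun y : Fin n → ℝ => deriv (f j) (y j) := by
    funext y; exact sep_fderiv u f hu hsep y j
  show fderiv ℝ (fun y => fderiv ℝ u y (Pi.single j 1)) x (Pi.single i 1) = _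
  rw [h1]
  have hdiff : DifferentiableAt ℝ (fun y : Fin n → ℝ => deriv (f j) (y j)) x := by
    have hproj : DifferentiableAt ℝ (fun y : Fin n → ℝ => y j) x := by fun_prop
    exact (hdfj (x j)).comp x hproj
  rw [fderiv_eq_deriv_line _ x _ hdiff]
  by_cases hij : i = j
  · subst hij
    rw [Matrix.diagonal_apply_eq]
    have h2 : HasDerivAt (fun t : ℝ => deriv (f i) (x i + t)) (deriv (deriv (f i)) (x i)) 0 := by
      have h3 : HasDerivAt (deriv (f i)) (deriv (deriv (f i)) (x i)) (x i + 0) := by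
        simpa using (hdfj (x i)).hasDerivAt
      simpa using h3.comp_const_add (x i) 0
    have h4 : (fun t : ℝ => deriv (f i) ((x + t • (Pi.single i 1 : Fin n → ℝ)) i))
        = fun t : ℝ => deriv (f i) (x i + t) := by
      funext t; simp
    rw [h4]; exact h2.deriv
  · rw [Matrix.diagonal_apply_ne _ hij]
    have h4 : (fun t : ℝ => deriv (f j) ((x + t • (Pi.single i 1 : Fin n → ℝ)) j))
        = fun _ : ℝ => deriv (f j) (x j) := by
      funext t
      have : (Pi.single i (1 : ℝ) : Fin n → ℝ) j = 0 := Pi.single_eq_of_ne (Ne.symm hij) _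
      simp [this]
    rw [h4]; simp

end sep

section prodpow

variable {n : ℕ} (g : Fin n → ℝ → ℝ) (a : ℝ)

theorem prod_line (y : Fin n → ℝ) (i : Fin n) (s : ℝ) :
    ∏ k, g k ((y + s • (Pi.single i 1 : Fin n → ℝ)) k)
      = g i (y i + s) * ∏ k ∈ Finset.univ.erase i, g k (y k) := by
  rw [← Finset.mul_prod_erase _ _ (Finset.mem_univ i)]
  congr 1
  · simp
  · apply Finset.prod_congr rfl
    intro k hk
    have : k ≠ i := Finset.ne_of_mem_erase hk
    simp [this]

theorem prodpow_smooth (hg : ∀ k, ContDiff ℝ ∞ (g k)) (hpos : ∀ k t, 0 < g k t) :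
    ContDiff ℝ ∞ (fun y : Fin n → ℝ => (∏ k, g k (y k)) ^ a) := by
  apply ContDiff.rpow_const_of_ne
  · apply contDiff_prod
    intro k _
    have hproj : ContDiff ℝ ∞ (fun y : Fin n → ℝ => y k) := by fun_prop
    exact (hg k).comp hproj
  · intro y
    exact (Finset.prod_pos (fun k _ => hpos k (y k))).ne'

theorem prodpow_fderiv (hg : ∀ k, ContDiff ℝ ∞ (g k)) (hpos : ∀ k t, 0 < g k t)
    (y : Fin n → ℝ) (i : Fin n) :
    fderiv ℝ (fun y : Fin n → ℝ => (∏ k, g k (y k)) ^ a) y (Pi.single i 1)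
      = (∏ k ∈ Finset.univ.erase i, g k (y k)) ^ a * deriv (fun s => (g i s) ^ a) (y i) := by
  have hw := prodpow_smooth g a hg hpos
  have hdiff : DifferentiableAt ℝ (fun y : Fin n → ℝ => (∏ k, g k (y k)) ^ a) y :=
    (hw.differentiable (by simp)).differentiableAt
  rw [fderiv_eq_deriv_line _ y _ hdiff]
  set C := ∏ k ∈ Finset.univ.erase i, g k (y k) with hC
  have hCpos : 0 < C := Finset.prod_pos (fun k _ => hpos k (y k))
  have h1 : (fun s : ℝ => (∏ k, g k ((y + s • (Pi.single i 1 : Fin n → ℝ)) k)) ^ a)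
      = fun s : ℝ => (g i (y i + s)) ^ a * C ^ a := by
    funext s
    rw [prod_line, Real.mul_rpow (hpos i _).le hCpos.le]
  rw [h1]
  have hφ : ContDiff ℝ ∞ (fun s => (g i s) ^ a) :=
    (hg i).rpow_const_of_ne (fun s => (hpos i s).ne')
  have hφd : Differentiable ℝ (fun s => (g i s) ^ a) := hφ.differentiable (by simp)
  have h2 : HasDerivAt (fun s : ℝ => (g i (y i + s)) ^ a)
      (deriv (fun s => (g i s) ^ a) (y i)) 0 := by
    have h3 : HasDerivAt (fun s => (g i s) ^ a) (deriv (fun s => (g i s) ^ a) (y i)) (y i + 0) := by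
      simpa using (hφd (y i)).hasDerivAt
    simpa using h3.comp_const_add (y i) 0
  rw [(h2.mul_const (C ^ a)).deriv, mul_comm]

theorem prodpow_hessian (hg : ∀ k, ContDiff ℝ ∞ (g k)) (hpos : ∀ k t, 0 < g k t)
    (x : Fin n → ℝ) (i : Fin n) :
    hessian (fun y : Fin n → ℝ => (∏ k, g k (y k)) ^ a) x i i
      = (∏ k ∈ Finset.univ.erase i, g k (x k)) ^ a
        * deriv (deriv (fun s => (g i s) ^ a)) (x i) := by
  have hw := prodpow_smooth g a hg hpos
  show fderiv ℝ (fun y => fderiv ℝ (fun y : Fin n → ℝ => (∏ k, g k (y k)) ^ a) y (Pi.single i 1))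
    x (Pi.single i 1) = _
  have hdiff : DifferentiableAt ℝ
      (fun y => fderiv ℝ (fun y : Fin n → ℝ => (∏ k, g k (y k)) ^ a) y (Pi.single i 1)) x := by
    have h1 : ContDiff ℝ ∞ (fun y => fderiv ℝ (fun y : Fin n → ℝ => (∏ k, g k (y k)) ^ a) y) :=
      hw.fderiv_right (by simp)
    have h2 : ContDiff ℝ ∞
        (fun y => fderiv ℝ (fun y : Fin n → ℝ => (∏ k, g k (y k)) ^ a) y (Pi.single i 1)) :=
      h1.clm_apply contDiff_const
    exact (h2.differentiable (by simp)).differentiableAt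
  rw [fderiv_eq_deriv_line _ x _ hdiff]
  set C := ∏ k ∈ Finset.univ.erase i, g k (x k) with hC
  have hφ : ContDiff ℝ ∞ (fun s => (g i s) ^ a) :=
    (hg i).rpow_const_of_ne (fun s => (hpos i s).ne')
  have hφ' : ContDiff ℝ ∞ (deriv (fun s => (g i s) ^ a)) := hφ.deriv'
  have hφ'd : Differentiable ℝ (deriv (fun s => (g i s) ^ a)) := hφ'.differentiable (by simp)
  have h1 : (fun t : ℝ => fderiv ℝ (fun y : Fin n → ℝ => (∏ k, g k (y k)) ^ a)
        (x + t • (Pi.single i 1 : Fin n → ℝ)) (Pi.single i 1))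
      = fun t : ℝ => C ^ a * deriv (fun s => (g i s) ^ a) (x i + t) := by
    funext t
    rw [prodpow_fderiv g a hg hpos]
    congr 2
    · apply Finset.prod_congr rfl
      intro k hk
      have : k ≠ i := Finset.ne_of_mem_erase hk
      simp [this]
    · simp
  rw [h1]
  have h2 : HasDerivAt (fun t : ℝ => deriv (fun s => (g i s) ^ a) (x i + t))
      (deriv (deriv (fun s => (g i s) ^ a)) (x i)) 0 := by
    have h3 : HasDerivAt (deriv (fun s => (g i s) ^ a))
        (deriv (deriv (fun s => (g i s) ^ a)) (x i)) (x i + 0) := by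
      simpa using (hφ'd (x i)).hasDerivAt
    simpa using h3.comp_const_add (x i) 0
  rw [(h2.const_mul (C ^ a)).deriv]

end prodpow

theorem inv_diagonal_of_ne_zero {n : ℕ} (d : Fin n → ℝ) (hd : ∀ i, d i ≠ 0) :
    (Matrix.diagonal d)⁻¹ = Matrix.diagonal (fun i => (d i)⁻¹) := by
  apply Matrix.inv_eq_right_inv
  rw [Matrix.diagonal_mul_diagonal]
  have : (fun i => d i * (d i)⁻¹) = fun _ => (1 : ℝ) := by
    funext i; exact mul_inv_cancel₀ (hd i)
  rw [this, Matrix.diagonal_one]

/-- sum of functions of separate variables vanishing identically: each is constant -/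
theorem sum_sep_const {n : ℕ} (ψ : Fin n → ℝ → ℝ) (h : ∀ x : Fin n → ℝ, ∑ i, ψ i (x i) = 0)
    (i : Fin n) (t : ℝ) : ψ i t = ψ i 0 := by
  have h1 := h (Pi.single i t)
  have h0 := h 0
  rw [← Finset.add_sum_erase _ _ (Finset.mem_univ i)] at h1 h0
  have h2 : ∑ k ∈ Finset.univ.erase i, ψ k ((Pi.single i t : Fin n → ℝ) k)
      = ∑ k ∈ Finset.univ.erase i, ψ k ((0 : Fin n → ℝ) k) := by
    apply Finset.sum_congr rfl
    intro k hk
    have : k ≠ i := Finset.ne_of_mem_erase hk
    simp [this]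
  rw [h2] at h1
  simp only [Pi.single_eq_same, Pi.zero_apply] at h1 h0
  linarith

theorem separable_bernstein (n : ℕ) (u : (Fin n → ℝ) → ℝ) (hu : ContDiff ℝ ∞ u)
    (hpos : ∀ x, (hessian u x).PosDef) (hAM : IsAffineMaximal u)
    (f : Fin n → ℝ → ℝ) (hsep : ∀ x, u x = ∑ i, f i (x i)) :
    ∃ (A B : Fin n → ℝ) (c : ℝ), (∀ i, 0 < A i) ∧
      ∀ x, u x = ∑ i, (A i / 2 * (x i) ^ 2 + B i * x i) + c := by
  classical
  set g : Fin n → ℝ → ℝ := fun k => deriv (deriv (f k)) with hg
  have hfs : ∀ k, ContDiff ℝ ∞ (f k) := sep_smooth u f hu hsep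
  have hgs : ∀ k, ContDiff ℝ ∞ (g k) := fun k => (hfs k).deriv'.deriv'
  have hH : ∀ x, hessian u x = Matrix.diagonal (fun k => g k (x k)) := sep_hessian u f hu hsep
  have hgpos : ∀ k t, 0 < g k t := by
    intro k t
    have h1 := hpos (Pi.single k t)
    rw [hH, Matrix.posDef_diagonal_iff] at h1
    simpa using h1 k
  set a : ℝ := -((n : ℝ) + 1) / ((n : ℝ) + 2) with ha
  have ha0 : a ≠ 0 := by
    rw [ha]
    have h1 : (0 : ℝ) ≤ n := Nat.cast_nonneg n
    have h2 : (n : ℝ) + 2 ≠ 0 := by linarith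
    have h3 : -((n : ℝ) + 1) ≠ 0 := by linarith
    exact div_ne_zero h3 h2
  have hw : (fun y => (hessian u y).det ^ a) = fun y : Fin n → ℝ => (∏ k, g k (y k)) ^ a := by
    funext y
    rw [hH, Matrix.det_diagonal]
  set φ : Fin n → ℝ → ℝ := fun k s => (g k s) ^ a with hφ
  have hφs : ∀ k, ContDiff ℝ ∞ (φ k) := fun k =>
    (hgs k).rpow_const_of_ne (fun s => (hgpos k s).ne')
  have hφpos : ∀ k t, 0 < φ k t := fun k t => Real.rpow_pos_of_pos (hgpos k t) a
  set ψ : Fin n → ℝ → ℝ := fun k t => (g k t)⁻¹ * ((g k t) ^ a)⁻¹ * deriv (deriv (φ k)) t with hψ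
  -- the equation in separated form
  have hsum : ∀ x : Fin n → ℝ, ∑ i, ψ i (x i) = 0 := by
    intro x
    have h1 := hAM x
    rw [hw] at h1
    set P := ∏ k, g k (x k) with hP
    have hPpos : 0 < P := Finset.prod_pos (fun k _ => hgpos k (x k))
    have h2 : ∀ i, ∑ j, ((hessian u x).det • (hessian u x)⁻¹) i j *
        hessian (fun y : Fin n → ℝ => (∏ k, g k (y k)) ^ a) x i j
        = P * P ^ a * ψ i (x i) := by
      intro i
      rw [Finset.sum_eq_single i]
      · rw [prodpow_hessian g a hgs hgpos, hH, Matrix.det_diagonal,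
          inv_diagonal_of_ne_zero _ (fun k => (hgpos k (x k)).ne')]
        simp only [Matrix.smul_apply, Matrix.diagonal_apply_eq, smul_eq_mul]
        have hci : ∏ k ∈ Finset.univ.erase i, g k (x k) = P / g i (x i) := by
          rw [eq_div_iff (hgpos i (x i)).ne', mul_comm]
          exact Finset.mul_prod_erase Finset.univ (fun k => g k (x k)) (Finset.mem_univ i)
        rw [hci, Real.div_rpow hPpos.le (hgpos i (x i)).le]
        rw [← hP]
        simp only [hψ, hφ]
        field_simp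
      · intro j _ hji
        rw [hH, inv_diagonal_of_ne_zero _ (fun k => (hgpos k (x k)).ne')]
        simp [Matrix.diagonal_apply_ne _ (Ne.symm hji)]
      · intro h; exact absurd (Finset.mem_univ i) h
    simp only [h2] at h1
    rw [← Finset.mul_sum] at h1
    have h3 : P * P ^ a ≠ 0 := (mul_pos hPpos (Real.rpow_pos_of_pos hPpos a)).ne'
    exact (mul_eq_zero.mp h1).resolve_left h3
  -- each ψ i is constant
  have hconst : ∀ i t, ψ i t = ψ i 0 := sum_sep_const ψ hsum
  have hφ2 : ∀ i t, deriv (deriv (φ i)) t = ψ i 0 * (g i t * (g i t) ^ a) := by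
    intro i t
    have h : (g i t)⁻¹ * ((g i t) ^ a)⁻¹ * deriv (deriv (φ i)) t = ψ i 0 := hconst i t
    have h1 : g i t ≠ 0 := (hgpos i t).ne'
    have h2 : (g i t) ^ a ≠ 0 := (Real.rpow_pos_of_pos (hgpos i t) a).ne'
    rw [← h]
    field_simp
  have hφd1 : ∀ i, Differentiable ℝ (φ i) := fun i => (hφs i).differentiable (by simp)
  have hφd2 : ∀ i, Differentiable ℝ (deriv (φ i)) := by
    intro i
    have h : ContDiff ℝ ∞ (deriv (φ i)) := (hφs i).deriv'
    exact h.differentiable (by simp)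
  have hfac : ∀ i t, 0 < g i t * (g i t) ^ a := fun i t =>
    mul_pos (hgpos i t) (Real.rpow_pos_of_pos (hgpos i t) a)
  have hc_nonneg : ∀ i, 0 ≤ ψ i 0 := by
    intro i
    by_contra hneg
    push Not at hneg
    have hφneg : ∀ t, deriv (deriv (φ i)) t ≤ 0 := by
      intro t; rw [hφ2 i t]
      exact (mul_neg_of_neg_of_pos hneg (hfac i t)).le
    have hzero := deriv_eq_zero_of_pos_of_deriv2_nonpos (φ i) (hφd1 i) (hφd2 i) (hφpos i) hφneg
    have hfun : deriv (φ i) = fun _ => 0 := funext hzero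
    have h0 : deriv (deriv (φ i)) 0 = 0 := by rw [hfun]; simp
    rw [hφ2 i 0] at h0
    have := mul_neg_of_neg_of_pos hneg (hfac i 0)
    linarith
  have hc_zero : ∀ i, ψ i 0 = 0 := by
    have h0 := hsum 0
    simp only [Pi.zero_apply] at h0
    intro i
    exact (Finset.sum_eq_zero_iff_of_nonneg (fun k _ => hc_nonneg k)).mp h0 i (Finset.mem_univ i)
  have hφconst : ∀ i t, φ i t = φ i 0 := by
    intro i t
    have hφneg : ∀ t, deriv (deriv (φ i)) t ≤ 0 := by
      intro t; rw [hφ2 i t, hc_zero i, zero_mul]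
    have hzero := deriv_eq_zero_of_pos_of_deriv2_nonpos (φ i) (hφd1 i) (hφd2 i) (hφpos i) hφneg
    exact is_const_of_deriv_eq_zero (hφd1 i) hzero t 0
  have hgconst : ∀ i t, g i t = g i 0 := by
    intro i t
    have h := hφconst i t
    exact (Real.rpow_left_inj (hgpos i t).le (hgpos i 0).le ha0).mp h
  have hfd1 : ∀ i, Differentiable ℝ (f i) := fun i => (hfs i).differentiable (by simp)
  have hfd2 : ∀ i, Differentiable ℝ (deriv (f i)) := by
    intro i
    have h : ContDiff ℝ ∞ (deriv (f i)) := (hfs i).deriv'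
    exact h.differentiable (by simp)
  have hquad : ∀ i t, f i t = g i 0 / 2 * t ^ 2 + deriv (f i) 0 * t + f i 0 :=
    fun i => eq_quadratic_of_deriv2_const (f i) (hfd1 i) (hfd2 i) (g i 0) (fun t => hgconst i t)
  refine ⟨fun i => g i 0, fun i => deriv (f i) 0, ∑ i, f i 0, fun i => hgpos i 0, ?_⟩
  intro x
  rw [hsep x, ← Finset.sum_add_distrib]
  exact Finset.sum_congr rfl (fun i _ => hquad i (x i))

end Vale.Agent.Lib.P252
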